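import Vale.Agent.P132.Final

namespace Vale.Agent.Results.P132.Bicentralizer

open Vale.Agent.P132

/-- Connes' bicentralizer conjecture. The algebra `A` is identified through `π` with the von
Neumann algebra `M`. If it is a type III factor such that the modular operator of every faithful
normal state has spectrum containing `[0, ∞)`, every faithful normal state has trivial
bicentralizer. -/
theorem result {A : Type*} [CStarAlgebra A] {H : Type*} [NormedAddCommGroup H]
    [InnerProductSpace ℂ H] [CompleteSpace H] (π : A →⋆ₐ[ℂ] (H →L[ℂ] H))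
    (hπ : Function.Injective π) (M : VonNeumannAlgebra H) (hM : Set.range π = M)
    (hF : IsFactor A) (h3 : IsTypeIII A) (hS : ∀ r : ℝ, 0 ≤ r → (r : ℂ) ∈ specS π)
    (φ : A →L[ℂ] ℂ) (hφ : IsFNState π φ) : bicentralizer π φ = {a | ∃ c : ℂ, a = c • 1} :=
  bicentralizer_trivial hπ M hM hF h3 hS hφ

end Vale.Agent.Results.P132.Bicentralizer
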